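import Vale.Agent.P032.Six.Max

/-!
# P032: relatively maximal families from closed covers of order at most `n`

Let `F i` be finitely many closed sets covering the plane, such that every point of the closed set
`D` lies in at most `n` of them and the interior of `F i` contains no two points at distance one.
Then there is a family `V` of open sets with `Mx V`, `interior (F i) ⊆ V i` and every point of `D`
is in at most `n` of the closures of the `V i`.
-/

open Set Filter Topology Metric

noncomputable section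

namespace Vale.Agent.P032.Six

/-- Swelling of a finite family of closed sets which has order at most `n` on the closed
set `D` -/
theorem exists_swelling {k n : ℕ} (F : Fin k → Set ℂ) (hF : ∀ i, IsClosed (F i)) {D : Set ℂ}
    (hD : IsClosed D) (ho : ∀ x ∈ D, {i | x ∈ F i}.ncard ≤ n) :
    ∃ A : Fin k → Set ℂ, (∀ i, IsOpen (A i)) ∧ (∀ i, F i ⊆ A i) ∧
      ∀ x ∈ D, {i | x ∈ closure (A i)}.ncard ≤ n := by
  classical
  -- for every set `S` of `n + 1` colours the complements cover
  have h1 : ∀ S : Finset (Fin k), S.card = n + 1 →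
      ∃ v : Option (Fin k) → Set ℂ, ⋃ i, v i = univ ∧ (∀ i, IsOpen (v i)) ∧
        ∀ i, closure (v i) ⊆ i.elim Dᶜ fun i => if i ∈ S then (F i)ᶜ else ∅ := by
    intro S hS
    refine exists_iUnion_eq_closure_subset (fun i => ?_) (fun x => Set.toFinite _) ?_
    · rcases i with _ | i
      · exact hD.isOpen_compl
      · dsimp only [Option.elim]
        split_ifs
        · exact (hF i).isOpen_compl
        · exact isOpen_empty
    · rw [eq_univ_iff_forall]
      intro x
      by_contra hcon
      simp only [mem_iUnion, not_exists] at hcon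
      have hxD : x ∈ D := by
        have h3 := hcon none
        simpa using h3
      have h2 : (S : Set (Fin k)) ⊆ {i | x ∈ F i} := by
        intro i hi
        have h3 := hcon (some i)
        dsimp only [Option.elim] at h3
        rw [if_pos (by simpa using hi)] at h3
        simpa using h3
      have h4 := Set.ncard_le_ncard h2 (Set.toFinite _)
      rw [Set.ncard_coe_finset, hS] at h4
      have := ho x hxD
      omega
  choose! v hv hvo hvc using h1
  refine ⟨fun i => ⋂ S : {S : Finset (Fin k) // S.card = n + 1 ∧ i ∈ S},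
    (closure (v S (some i)))ᶜ,
    fun i => isOpen_iInter_of_finite fun S => isClosed_closure.isOpen_compl, ?_, ?_⟩
  · intro i x hx
    rw [mem_iInter]
    rintro ⟨S, hS, hi⟩ hcl
    have := hvc S hS (some i) hcl
    dsimp only [Option.elim] at this
    rw [if_pos hi] at this
    exact this hx
  · intro x hxD
    by_contra hcon
    push Not at hcon
    obtain ⟨T, hT, hTc⟩ := Set.exists_subset_card_eq (s := {i | x ∈ closure
      (⋂ S : {S : Finset (Fin k) // S.card = n + 1 ∧ i ∈ S}, (closure (v S (some i)))ᶜ)})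
      (n := n + 1) hcon
    obtain ⟨S, rfl⟩ := T.toFinite.exists_finset_coe
    rw [Set.ncard_coe_finset] at hTc
    have h2 : x ∈ ⋃ i, v S i := by rw [hv S hTc]; trivial
    obtain ⟨i, hi⟩ := mem_iUnion.1 h2
    have h3 := hvc S hTc i (subset_closure hi)
    rcases i with _ | i
    · exact h3 hxD
    · dsimp only [Option.elim] at h3
      by_cases hiS : i ∈ S
      · have h4 : x ∈ closure
          (⋂ S : {S : Finset (Fin k) // S.card = n + 1 ∧ i ∈ S}, (closure (v S (some i)))ᶜ) :=
          hT (by simpa using hiS)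
        have h5 : closure (⋂ S : {S : Finset (Fin k) // S.card = n + 1 ∧ i ∈ S},
            (closure (v S (some i)))ᶜ) ⊆ (v S (some i))ᶜ := by
          refine closure_minimal ?_ (hvo S hTc (some i)).isClosed_compl
          exact (iInter_subset _ ⟨S, hTc, hiS⟩).trans (compl_subset_compl.2 subset_closure)
        exact h5 h4 hi
      · rw [if_neg hiS] at h3
        exact h3

/-- every open set without unit distance inside an open set `A` is contained in a relatively
maximal one -/
theorem exists_maximal_rel (V A : Set ℂ) (hV : IsOpen V) (hA : IsOpen A) (hVA : V ⊆ A)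
    (h : ∀ x ∈ V, ∀ y ∈ V, dist x y ≠ 1) :
    ∃ W, V ⊆ W ∧ W ⊆ A ∧ IsOpen W ∧ (∀ x ∈ W, ∀ y ∈ closure W, dist x y ≠ 1) ∧
      ∀ x ∈ A, (∀ y ∈ closure W, dist x y ≠ 1) → x ∈ W := by
  have hub : ∀ c ⊆ {W : Set ℂ | IsOpen W ∧ W ⊆ A ∧ ∀ x ∈ W, ∀ y ∈ W, dist x y ≠ 1},
      IsChain (· ⊆ ·) c → c.Nonempty →
      ∃ ub ∈ {W : Set ℂ | IsOpen W ∧ W ⊆ A ∧ ∀ x ∈ W, ∀ y ∈ W, dist x y ≠ 1},
        ∀ s ∈ c, s ⊆ ub := by
    intro c hc hchain _
    refine ⟨⋃₀ c, ⟨isOpen_sUnion fun s hs => (hc hs).1, sUnion_subset fun s hs => (hc hs).2.1,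
      ?_⟩, fun s hs => subset_sUnion_of_mem hs⟩
    rintro x ⟨s, hs, hxs⟩ y ⟨t, ht, hyt⟩
    rcases hchain.total hs ht with hst | hst
    · exact (hc ht).2.2 x (hst hxs) y hyt
    · exact (hc hs).2.2 x hxs y (hst hyt)
  obtain ⟨W, hVW, hW⟩ := zorn_subset_nonempty _ hub V ⟨hV, hVA, h⟩
  obtain ⟨hWo, hWA, hWf⟩ := hW.prop
  refine ⟨W, hVW, hWA, hWo, free_closure hWo hWf, fun x hxA hx => ?_⟩
  obtain ⟨r, hr, hfree⟩ := free_union_ball hWf hx
  obtain ⟨s, hs, hsA⟩ := Metric.isOpen_iff.1 hA x hxA
  have hsub : W ∪ ball x (min r s) ⊆ W ∪ ball x r :=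
    union_subset_union_right _ (ball_subset_ball (min_le_left _ _))
  have h1 := hW.le_of_ge (y := W ∪ ball x (min r s))
    ⟨hWo.union isOpen_ball, union_subset hWA
      ((ball_subset_ball (min_le_right _ _)).trans hsA),
      fun p hp q hq => hfree p (hsub hp) q (hsub hq)⟩ subset_union_left
  exact h1 (Or.inr (mem_ball_self (lt_min hr hs)))

/-- **Relatively maximal families of closed covers of order at most `n` on `D`.** -/
theorem exists_Mx_rel {k n : ℕ} (F : Fin k → Set ℂ) (hF : ∀ i, IsClosed (F i))
    (hcov : ⋃ i, F i = univ) {D : Set ℂ} (hD : IsClosed D)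
    (ho : ∀ x ∈ D, {i | x ∈ F i}.ncard ≤ n)
    (hfree : ∀ i, ∀ x ∈ interior (F i), ∀ y ∈ interior (F i), dist x y ≠ 1) :
    ∃ V : Fin k → Set ℂ, Mx V ∧ (∀ x ∈ D, (Pal V x).ncard ≤ n) ∧
      ∀ i, interior (F i) ⊆ V i := by
  obtain ⟨A, hAo, hFA, hA⟩ := exists_swelling F hF hD ho
  choose V hV hVA hVo hVf hVm using fun i => exists_maximal_rel (interior (F i)) (A i)
    isOpen_interior (hAo i) (interior_subset.trans (hFA i)) (hfree i)
  -- the reduced cover
  have hdense : Dense (⋃ i, interior (F i)) := dense_iUnion_interior_of_closed hF hcov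
  have hG : ∀ x, ∃ i, x ∈ closure (interior (F i)) := fun x => by
    have h1 : x ∈ closure (⋃ i, interior (F i)) := hdense x
    rw [closure_iUnion_of_finite] at h1
    simpa using h1
  have hGF : ∀ i, closure (interior (F i)) ⊆ F i := fun i =>
    closure_minimal interior_subset (hF i)
  have hGV : ∀ i, closure (interior (F i)) ⊆ closure (V i) := fun i => closure_mono (hV i)
  refine ⟨V, ⟨hVo, hdense.mono (iUnion_mono hV), hVf, ?_, fun z => {i | z ∈ closure
    (interior (F i))}, fun z => ⟨fun i hi => hGV i hi, ?_, ?_⟩⟩, ?_, hV⟩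
  · intro i x hx
    apply hV i
    have h1 : x ∈ interior (closure (interior (F i))) := by
      rw [mem_interior_iff_mem_nhds]
      filter_upwards [pal_nhd V x] with z hz
      obtain ⟨j, hj⟩ := hG z
      have h2 : j ∈ Pal V z := hGV j hj
      have h3 : j = i := by simpa using hx (hz h2)
      exact h3 ▸ hj
    exact interior_mono (hGF i) h1
  · filter_upwards [pal_nhd (fun i => interior (F i)) z] with w hw
    obtain ⟨j, hj⟩ := hG w
    exact ⟨j, hw hj, hGV j hj⟩
  · intro hz i hi
    have hzA : z ∈ A i := hFA i (hGF i hi)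
    constructor
    · by_contra hcon
      push Not at hcon
      exact hz i (hVm i z hzA fun y hy hzy => hcon y hzy hy)
    · filter_upwards [(hAo i).mem_nhds hzA] with w hw hwi
      exact hVm i w hw (free_int_closure (hVf i) w hwi)
  · intro x hx
    exact (Set.ncard_le_ncard (fun i (hi : x ∈ closure (V i)) => closure_mono (hVA i) hi)
      (Set.toFinite _)).trans (hA x hx)

end Vale.Agent.P032.Six
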