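import Vale.Agent.P032.S5.H926.Top
import Vale.Agent.P032.T.ChiFinal
import Vale.Agent.P032.H490.Seven

/-!
# P032: from the frame to the chromatic number

`colourable_iff_of` : from the exclusion of all irredundant covers to `χ(ℝ²) = 7`.
-/

open Set Filter Topology Metric

noncomputable section

namespace Vale.Agent.P032.S5.H926

open Vale.Agent.P032.Six

/-- **From the frame to the chromatic number.** -/
theorem no_six_of
    (top : ∀ (V : Fin 6 → Set ℂ) (T : ℂ → Set (Fin 6)), Irr V T →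
      (∀ z, 4 ≤ (T z).ncard → ∀ s, s ⊆ T z → s ≠ T z →
        ¬ ∀ᶠ w in 𝓝 z, ∃ i ∈ s, w ∈ V i ∨ (w ∈ XX V ∧ i ∈ Pal V w)) → False) :
    ¬ ∃ c : EuclideanSpace ℝ (Fin 2) → Fin 6,
      ∀ x y : EuclideanSpace ℝ (Fin 2), dist x y = 1 → c x ≠ c y := by
  rintro ⟨c, hc⟩
  let φ : ℂ ≃ₗᵢ[ℝ] EuclideanSpace ℝ (Fin 2) := Complex.orthonormalBasisOneI.repr
  have hc' : ∀ x y : ℂ, dist x y = 1 → c (φ x) ≠ c (φ y) := fun x y h => hc _ _ (by
    rw [φ.dist_map]; exact h)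
  obtain ⟨c', hm, hp⟩ := Vale.Agent.P032.T.transfer (fun z => c (φ z)) hc'
  obtain ⟨D, hD, hu, -, hdense⟩ := Vale.Agent.P032.M.denseOpen 6 c' hm hp
  choose U hDU hU using fun i => exists_maximal_ge (hD i) (hu i)
  obtain ⟨T, hT, hmin, -⟩ := exists_irr_min_le_of (Mx_of_maximal hU
    (hdense.mono (iUnion_mono hDU))) (fun i x hx => (mem_iff_of_maximal (hU i) x).2 hx)
    (D := univ) isClosed_univ (m := 6) (by norm_num) fun z _ _ => by
      refine ⟨univ, (Set.ncard_le_card _).trans (by simp), ?_⟩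
      filter_upwards with w
      by_cases hX : w ∈ XX U
      · obtain ⟨i, hi⟩ := (Mx_of_maximal hU (hdense.mono (iUnion_mono hDU))).cover w
        exact ⟨i, mem_univ _, Or.inr ⟨hX, hi⟩⟩
      · have : ∃ i, w ∈ U i := by simpa [XX] using hX
        obtain ⟨i, hi⟩ := this
        exact ⟨i, mem_univ _, Or.inl hi⟩
  exact top U T hT hmin

theorem colourable_iff_of
    (top : ∀ (V : Fin 6 → Set ℂ) (T : ℂ → Set (Fin 6)), Irr V T →
      (∀ z, 4 ≤ (T z).ncard → ∀ s, s ⊆ T z → s ≠ T z →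
        ¬ ∀ᶠ w in 𝓝 z, ∃ i ∈ s, w ∈ V i ∨ (w ∈ XX V ∧ i ∈ Pal V w)) → False) :
    IsLeast {k : ℕ | ∃ c : EuclideanSpace ℝ (Fin 2) → Fin k,
      ∀ x y : EuclideanSpace ℝ (Fin 2), dist x y = 1 → c x ≠ c y} 7 :=
  Vale.Agent.P032.H490.isLeast_seven_of_no_six (no_six_of top)

end Vale.Agent.P032.S5.H926
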