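import Vale.Agent.P032.ND.Order
import Vale.Agent.P032.S5.Clopen

/-!
# P032: the points of order at least four form a totally disconnected set

Six closed sets cover the plane, no point of the interior of one of them is at distance one from
a point of the same set. Then the set of points lying in at least four of the sets contains no
connected set with more than one point.
-/

open Set Filter Topology Metric

noncomputable section

namespace Vale.Agent.P032.S5.H926

open Vale.Agent.P032.Six Vale.Agent.P032.ND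

variable {k : ℕ} {U : Fin k → Set ℂ}

/-- in an open set `L` carrying only the colours `e`, `f`, a point with both colours has no
partner in `L` -/
theorem not_both (h : Fr U) {L : Set ℂ} (hL : IsOpen L) {e f : Fin k}
    (hsub : ∀ z ∈ L, Pal U z ⊆ {e, f}) {z z' : ℂ} (hz : z ∈ L) (hz' : z' ∈ L)
    (hd : dist z' z = 1) : ¬ (e ∈ Pal U z ∧ f ∈ Pal U z) := by
  rintro ⟨he, hf⟩
  -- the points of `L` on a circle about a point with both colours have both colours
  have key : ∀ z, e ∈ Pal U z → f ∈ Pal U z → ∀ q ∈ L, dist q z = 1 →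
      e ∈ Pal U q ∧ f ∈ Pal U q := by
    intro z he hf q hq hqz
    constructor
    · by_contra hcon
      have h1 : Pal U q ⊆ {f} := fun m hm => by
        rcases hsub q hq hm with h2 | h2
        · exact absurd (h2 ▸ hm) hcon
        · exact h2
      exact h.notMem hf hqz (h.mem_of_pal h1)
    · by_contra hcon
      have h1 : Pal U q ⊆ {e} := fun m hm => by
        rcases hsub q hq hm with h2 | h2
        · exact h2
        · rw [mem_singleton_iff] at h2
          exact absurd (h2 ▸ hm) hcon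
      exact h.notMem he hqz (h.mem_of_pal h1)
  have h1 := key z he hf
  obtain ⟨z2, hz2L, hz2, hne, hne2, -⟩ := exists_generic (y := z') (p := z') (z := z) hd
    (mem_nhdsWithin_of_mem_nhds (hL.mem_nhds hz'))
  have hb := h1 z' hz' hd
  have hJ : ∀ᶠ q in 𝓝[sphere z' 1] z, e ∈ Pal U q := by
    filter_upwards [mem_nhdsWithin_of_mem_nhds (hL.mem_nhds hz), self_mem_nhdsWithin]
      with q hq1 hq2
    exact (key z' hb.1 hb.2 q hq1 hq2).1
  rcases h.partner_line (u := z') (p := z) (v := z2) (t := e) (by rw [dist_comm]; exact hd) hJ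
    (by rw [dist_comm]; exact hz2) (h1 z2 hz2L hz2).1 with h3 | h3
  · exact hne h3
  · exact hne2 h3

/-- geometry of the lune: an arc of radius slightly less than one -/
theorem lune_geo {c c2 : ℂ} {w : ℝ} (hw : dist c2 c = w) (hw0 : 0 < w) (hw8 : w ≤ 1 / 8) :
    ∃ (a : ℝ → ℂ) (φ : ℝ), Continuous a ∧ 0 ≤ φ ∧
      (∀ θ ∈ Icc (-φ) φ, dist (a θ) c < 1 ∧ 1 < dist (a θ) c2) ∧
      ∀ θ, dist (a (θ - φ)) (a θ) = 1 := by
  set ρ : ℝ := 1 - w / 8 with hρ
  have hρ1 : 63 / 64 ≤ ρ := by rw [hρ]; linarith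
  have hρ2 : ρ < 1 := by rw [hρ]; linarith
  have hρ0 : 0 < ρ := by linarith
  set d : ℂ := (c - c2) / (w : ℂ) with hd
  have hwc : (w : ℂ) ≠ 0 := by exact_mod_cast hw0.ne'
  have hd1 : ‖d‖ = 1 := by
    rw [hd, norm_div, Complex.norm_real, Real.norm_of_nonneg hw0.le, ← dist_eq_norm, dist_comm,
      hw, div_self hw0.ne']
  have hdw : c - c2 = w * d := by rw [hd]; field_simp
  set φ : ℝ := Real.arccos (1 - 1 / (2 * ρ ^ 2)) with hφ
  have hr2 : (63 / 64 : ℝ) ^ 2 ≤ ρ ^ 2 := by gcongr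
  have hr3 : ρ ^ 2 < 1 := by nlinarith
  have hcosφ : Real.cos φ = 1 - 1 / (2 * ρ ^ 2) := by
    refine Real.cos_arccos ?_ ?_
    · have : 1 / (2 * ρ ^ 2) ≤ 2 := by
        rw [div_le_iff₀ (by positivity)]; nlinarith
      linarith
    · have : 0 ≤ 1 / (2 * ρ ^ 2) := by positivity
      linarith
  have hcos4 : 1 / 4 ≤ Real.cos φ := by
    rw [hcosφ]
    have : 1 / (2 * ρ ^ 2) ≤ 3 / 4 := by
      rw [div_le_iff₀ (by positivity)]; nlinarith
    linarith
  have hφ0 : 0 ≤ φ := Real.arccos_nonneg _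
  have hφπ : φ ≤ Real.pi := Real.arccos_le_pi _
  refine ⟨fun θ => c + ρ * (d * cis θ), φ, ?_, hφ0, ?_, ?_⟩
  · exact continuous_const.add (continuous_const.mul (continuous_const.mul continuous_cis))
  · intro θ hθ
    have hcosθ : 1 / 4 ≤ Real.cos θ := by
      rw [← Real.cos_abs θ]
      refine hcos4.trans (Real.cos_le_cos_of_nonneg_of_le_pi (abs_nonneg _) hφπ ?_)
      rw [abs_le]; exact hθ
    constructor
    · rw [dist_eq_norm, add_sub_cancel_left, norm_mul, norm_mul, hd1, norm_cis,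
        Complex.norm_real, Real.norm_of_nonneg hρ0.le]
      linarith
    · have h1 : c + ρ * (d * cis θ) - c2 = d * (ρ * cis θ + w) := by
        linear_combination hdw
      have h2 : ‖(ρ : ℂ) * cis θ + w‖ ^ 2 = ρ ^ 2 + 2 * ρ * w * Real.cos θ + w ^ 2 := by
        rw [Complex.sq_norm, Complex.normSq_apply]
        have e1 : ((ρ : ℂ) * cis θ + w).re = ρ * Real.cos θ + w := by simp [cis_re]
        have e2 : ((ρ : ℂ) * cis θ + w).im = ρ * Real.sin θ := by simp [cis_im]
        rw [e1, e2]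
        have := Real.sin_sq_add_cos_sq θ
        linear_combination ρ ^ 2 * this
      rw [dist_eq_norm, h1, norm_mul, hd1, one_mul]
      have h3 : 1 < ‖(ρ : ℂ) * cis θ + w‖ ^ 2 := by
        rw [h2]
        have h4 : ρ * w * (1 / 4) ≤ ρ * w * Real.cos θ := by gcongr
        have h5 : 63 / 64 * w ≤ ρ * w := by gcongr
        have h6 : ρ ^ 2 = 1 - w / 4 + w ^ 2 / 64 := by rw [hρ]; ring
        nlinarith
      exact (one_lt_sq_iff₀ (norm_nonneg _)).1 h3
  · intro θ
    have h1 : c + ρ * (d * cis (θ - φ)) - (c + ρ * (d * cis θ)) =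
        ρ * (d * (cis (θ - φ) * (1 - cis φ))) := by
      have : cis θ = cis (θ - φ) * cis φ := by rw [← cis_add']; congr 1; ring
      rw [this]; ring
    have h2 : ‖1 - cis φ‖ ^ 2 = 1 / ρ ^ 2 := by
      rw [Complex.sq_norm, Complex.normSq_apply]
      have e1 : (1 - cis φ).re = 1 - Real.cos φ := by simp [cis_re]
      have e2 : (1 - cis φ).im = - Real.sin φ := by simp [cis_im]
      rw [e1, e2]
      have h3 := Real.sin_sq_add_cos_sq φ
      have h4 : (1 - Real.cos φ) * (1 - Real.cos φ) + -Real.sin φ * -Real.sin φ =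
          2 - 2 * Real.cos φ := by linear_combination h3
      rw [h4, hcosφ]
      field_simp
      ring
    rw [dist_eq_norm, h1, norm_mul, norm_mul, norm_mul, hd1, norm_cis, Complex.norm_real,
      Real.norm_of_nonneg hρ0.le, one_mul, one_mul]
    have h3 : (ρ * ‖1 - cis φ‖) ^ 2 = 1 := by
      rw [mul_pow, h2]; field_simp
    exact (pow_eq_one_iff_of_nonneg (by positivity) (by norm_num)).1 h3

/-- a connected set without the colour `f` in a region with the colours `e`, `f` -/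
theorem lune_mono (h : Fr U) {L : Set ℂ} (hL : IsOpen L) {e f : Fin k}
    (hsub : ∀ z ∈ L, Pal U z ⊆ {e, f}) {a : ℝ → ℂ} (ha : Continuous a) {φ : ℝ} (hφ : 0 ≤ φ)
    (haL : ∀ θ ∈ Icc (-φ) φ, a θ ∈ L) (hd : ∀ θ, dist (a (θ - φ)) (a θ) = 1)
    (he : e ∈ Pal U (a 0)) : False := by
  have hA : IsPreconnected (a '' Icc 0 φ) := isPreconnected_Icc.image _ ha.continuousOn
  have h0 : (0 : ℝ) ∈ Icc 0 φ := ⟨le_rfl, hφ⟩
  have hφm : φ ∈ Icc 0 φ := ⟨hφ, le_rfl⟩
  have hnot : ∀ θ ∈ Icc 0 φ, ¬ (e ∈ Pal U (a θ) ∧ f ∈ Pal U (a θ)) := fun θ hθ =>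
    not_both h hL hsub (haL θ ⟨by linarith [hθ.1], hθ.2⟩)
      (haL (θ - φ) ⟨by linarith [hθ.1], by linarith [hθ.2]⟩) (hd θ)
  have hcov : ∀ θ ∈ Icc 0 φ, e ∈ Pal U (a θ) ∨ f ∈ Pal U (a θ) := by
    intro θ hθ
    obtain ⟨i, hi⟩ := h.cover (a θ)
    rcases hsub _ (haL θ ⟨by linarith [hθ.1], hθ.2⟩) hi with h1 | h1
    · exact Or.inl (h1 ▸ hi)
    · rw [mem_singleton_iff] at h1
      exact Or.inr (h1 ▸ hi)
  have hf : ∀ θ ∈ Icc 0 φ, f ∉ Pal U (a θ) := by
    intro θ hθ hcon
    obtain ⟨_, ⟨⟨t, ht, rfl⟩, h1, h2⟩⟩ := isPreconnected_closed_iff.1 hA (closure (U e))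
      (closure (U f)) isClosed_closure isClosed_closure (by
        rintro _ ⟨t, ht, rfl⟩
        exact hcov t ht) ⟨a 0, ⟨0, h0, rfl⟩, he⟩ ⟨a θ, ⟨θ, hθ, rfl⟩, hcon⟩
    exact hnot t ht ⟨h1, h2⟩
  have hU : a 0 ∈ U e := h.mem_of_pal fun m hm => by
    rcases hsub _ (haL 0 ⟨by linarith, hφ⟩) hm with h1 | h1
    · exact h1
    · rw [mem_singleton_iff] at h1
      exact absurd (h1 ▸ hm) (hf 0 h0)
  have he2 : e ∈ Pal U (a φ) := (hcov φ hφm).resolve_right (hf φ hφm)
  have hd2 := hd φ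
  rw [sub_self] at hd2
  exact h.notMem he2 hd2 hU

/-- **Lune lemma**: a connected set all of whose points have all colours but `e` and `f` has at
most one point. -/
theorem lune (h : Fr U) {e f : Fin k} {C : Set ℂ} (hC : IsPreconnected C)
    (hCF : ∀ x ∈ C, ∀ i, i ≠ e → i ≠ f → i ∈ Pal U x) : C.Subsingleton := by
  by_contra hcon
  rw [Set.not_subsingleton_iff] at hcon
  obtain ⟨c, hc, c1, hc1, hne⟩ := hcon
  have hd : 0 < dist c1 c := dist_pos.2 hne.symm
  obtain ⟨c2, hc2, hw⟩ := hC.intermediate_value hc hc1 (f := fun x => dist x c)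
    (by fun_prop) (show min (1 / 8) (dist c1 c) ∈ Icc (dist c c) (dist c1 c) from
      ⟨by rw [dist_self]; positivity, min_le_right _ _⟩)
  obtain ⟨a, φ, ha, hφ, hmem, hdist⟩ := lune_geo hw (lt_min (by norm_num) hd) (min_le_left _ _)
  set L : Set ℂ := {z | dist z c < 1 ∧ 1 < dist z c2} with hLdef
  have hL : IsOpen L := by
    have h1 : IsOpen {z : ℂ | dist z c < 1} := isOpen_lt (by fun_prop) continuous_const
    have h2 : IsOpen {z : ℂ | 1 < dist z c2} := isOpen_lt continuous_const (by fun_prop)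
    exact h1.inter h2
  have hsub : ∀ z ∈ L, Pal U z ⊆ {e, f} := by
    intro z hz i hi
    by_contra hcon
    simp only [mem_insert_iff, mem_singleton_iff, not_or] at hcon
    exact h.wlemma hC (fun x hx => hCF x hx i hcon.1 hcon.2) hc hc2
      (by rw [dist_comm]; exact hz.1) (by rw [dist_comm]; exact hz.2) hi
  obtain ⟨i, hi⟩ := h.cover (a 0)
  have h0 : a 0 ∈ L := hmem 0 ⟨by linarith, hφ⟩
  rcases hsub _ h0 hi with h1 | h1
  · exact lune_mono h hL hsub ha hφ hmem hdist (h1 ▸ hi)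
  · rw [mem_singleton_iff] at h1
    exact lune_mono h hL (e := f) (f := e) (fun z hz => by
      rw [Set.pair_comm]; exact hsub z hz) ha hφ hmem hdist (h1 ▸ hi)

end Vale.Agent.P032.S5.H926
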