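import Vale.Agent.P032.S5.H410.Min

/-!
# P032: minimal palettes with control of the order

`exists_irr_min_le_of` : if near every point of a closed set `D` at most `m` of the sets of a maximal
family suffice, then there is an irredundant cover `Irr U T` with minimal palettes and at most `m`
colours at all points of `D`.
`exists_frame` : the same, and all points with at least four colours are in a given open set `V`
such that near all points off `V` three of the sets suffice.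
-/

open Set Filter Topology Metric

noncomputable section

namespace Vale.Agent.P032.S5.H926

open Vale.Agent.P032.Six Vale.Agent.P032.S5.H410

variable {ι : Type*} [Finite ι]

/-- **gluing**: on a totally disconnected closed set `Z` off a closed set `X` the palettes are
replaced by the locally sufficient palettes `s x` -/
theorem glue_step {P : ℂ → Set ι} {K : Set ι → ℂ → Set ι}
    (hKs : ∀ s x, K s x ⊆ s) (hKc : ∀ s i, IsClosed {x | i ∈ K s x})
    (hK : ∀ s x, (∃ i ∈ s, i ∈ P x) → (K s x).Nonempty ∧ K s x ⊆ P x)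
    {Z X : Set ℂ} (hZ : IsClosed Z) (hZd : IsTotallyDisconnected Z) (hXc : IsClosed X)
    {T : ℂ → Set ι} (hc : ∀ i, IsClosed {x | i ∈ T x}) (hn : ∀ x, (T x).Nonempty)
    (hs : ∀ x, T x ⊆ P x) (s : ℂ → Set ι) (hsuf : ∀ x ∈ Z \ X, Suff P (s x) x)
    (hsX : (∀ x ∈ Z \ X, s x ⊆ T x) ∨ IsClosed (Z \ X)) {R : ℂ → ℂ → Prop}
    (hR : ∀ x, ∀ᶠ w in 𝓝 x, R x w) :
    ∃ T' : ℂ → Set ι, (∀ i, IsClosed {x | i ∈ T' x}) ∧ (∀ x, (T' x).Nonempty) ∧
      (∀ x, T' x ⊆ P x) ∧ (∀ w ∈ X, T' w ⊆ T w) ∧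
      ∀ w, w ∉ X → w ∉ Z ∨ ∃ x ∈ Z \ X, R x w ∧ T' w ⊆ s x := by
  classical
  have hrad : ∀ x, ∃ r : ℝ, 0 < r ∧ (x ∈ Z \ X → (∀ w, dist w x < r → R x w) ∧
      (∀ w, dist w x < r → ∃ i ∈ s x, i ∈ P w) ∧ ∀ p ∈ X, 2 * r ≤ dist x p) := by
    intro x
    by_cases hx : x ∈ Z \ X
    · obtain ⟨r, hr, hball⟩ := Metric.mem_nhds_iff.1 (hsuf x hx)
      obtain ⟨r', hr', hball'⟩ := Metric.mem_nhds_iff.1 (hXc.isOpen_compl.mem_nhds hx.2)
      obtain ⟨ε, hε, hball''⟩ := Metric.mem_nhds_iff.1 (hR x)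
      refine ⟨min (min r (r' / 2)) ε, lt_min (lt_min hr (by positivity)) hε,
        fun _ => ⟨fun w hw => ?_, fun w hw => ?_, fun p hp => ?_⟩⟩
      · exact hball'' (mem_ball.2 (lt_of_lt_of_le hw (min_le_right _ _)))
      · exact hball (mem_ball.2 (lt_of_lt_of_le hw ((min_le_left _ _).trans (min_le_left _ _))))
      · by_contra hcon
        push Not at hcon
        refine hball' (mem_ball.2 ?_) hp
        rw [dist_comm]
        have h1 := min_le_right r (r' / 2)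
        have h2 := min_le_left (min r (r' / 2)) ε
        linarith
    · exact ⟨1, one_pos, fun h => absurd h hx⟩
  choose r hr0 hr using hrad
  set D : Set ℂ := Z \ X with hD
  have hDl : IsLocallyClosed D := by
    rw [hD, sdiff_eq]
    exact hZ.isLocallyClosed.inter hXc.isOpen_compl.isLocallyClosed
  obtain ⟨lab, hlab, hloc⟩ := exists_lab hDl (fun t ht htp => hZd t (ht.trans sdiff_subset) htp)
    (fun x => r x / 2) (fun x _ => half_pos (hr0 x))
  have hrho : ∀ d, ∃ ρ : ℝ, 0 < ρ ∧ (d ∈ D → dist d (lab d) + ρ ≤ r (lab d) / 2 ∧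
      ∀ d' ∈ D, dist d' d < 2 * ρ → lab d' = lab d) := by
    intro d
    by_cases hd : d ∈ D
    · obtain ⟨q, hq, hball⟩ := Metric.mem_nhds_iff.1 (hloc d hd)
      have h1 := (hlab d hd).2
      refine ⟨min (q / 2) (r (lab d) / 2 - dist d (lab d)), lt_min (by positivity) (by linarith),
        fun _ => ⟨?_, fun d' hd' hdd => ?_⟩⟩
      · have := min_le_right (q / 2) (r (lab d) / 2 - dist d (lab d))
        linarith
      · refine hball (mem_ball.2 ?_) hd'
        have := min_le_left (q / 2) (r (lab d) / 2 - dist d (lab d))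
        linarith
    · exact ⟨1, one_pos, fun h => absurd h hd⟩
  choose ρ hρ0 hρ using hrho
  -- the regions
  set B : Set ι → Set ℂ := fun t => {w | ∃ d ∈ D, dist w d < ρ d ∧ s (lab d) = t} with hB
  set N : Set ℂ := {w | ∃ d ∈ D, dist w d < ρ d} with hN
  have hNo : IsOpen N := by
    have : N = ⋃ d ∈ D, ball d (ρ d) := by ext w; simp [N]
    rw [this]
    exact isOpen_biUnion fun d _ => isOpen_ball
  have hlabX : ∀ d ∈ D, lab d ∉ X := fun d hd => (hlab d hd).1.2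
  -- two balls which meet have the same label
  have hsame : ∀ d ∈ D, ∀ d' ∈ D, ∀ w, dist w d < ρ d → dist w d' < ρ d' → lab d = lab d' := by
    intro d hd d' hd' w hw hw'
    have h1 := dist_triangle_left d d' w
    have h2 := dist_triangle_left d' d w
    rcases le_total (ρ d) (ρ d') with h | h
    · exact (hρ d' hd').2 d hd (by linarith)
    · exact ((hρ d hd).2 d' hd' (by linarith)).symm
  have hgoodball : ∀ d ∈ D, ∀ w, dist w d < ρ d → dist w (lab d) < r (lab d) / 2 := by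
    intro d hd w hw
    have h1 := (hρ d hd).1
    have h2 := dist_triangle w d (lab d)
    linarith
  have hgood : ∀ d ∈ D, ∀ w, dist w (lab d) < r (lab d) → ∃ i ∈ s (lab d), i ∈ P w := by
    intro d hd w hw
    exact (hr (lab d) (hlab d hd).1).2.1 w hw
  -- (alpha)
  have halpha : ∀ t, ∀ w ∈ closure (B t), ∀ d ∈ D, dist w d < ρ d → t = s (lab d) := by
    intro t w hw d hd hwd
    obtain ⟨v, hv, hvB⟩ := mem_closure_iff_nhds.1 hw (ball d (ρ d))
      (isOpen_ball.mem_nhds (mem_ball.2 hwd))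
    obtain ⟨d', hd', hvd', rfl⟩ := hvB
    rw [hsame d' hd' d hd v hvd' (mem_ball.1 hv)]
  -- (beta)
  have hbeta : ∀ t, ∀ w ∈ closure (B t), w ∉ X → ∃ i ∈ t, i ∈ P w := by
    intro t w hw hwX
    by_cases hwD : w ∈ D
    · have h1 : dist w w < ρ w := by rw [dist_self]; exact hρ0 w
      rw [halpha t w hw w hwD h1]
      refine hgood w hwD w ?_
      have := hgoodball w hwD w h1
      have := hr0 (lab w)
      linarith
    · have hwZ : w ∉ Z ∪ X := fun h => h.elim (fun h => hwD ⟨h, hwX⟩) hwX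
      obtain ⟨η, hη, hball⟩ := Metric.mem_nhds_iff.1 ((hZ.union hXc).isOpen_compl.mem_nhds hwZ)
      obtain ⟨v, hv, d, hd, hvd, rfl⟩ := mem_closure_iff_nhds.1 hw (ball w (η / 2))
        (ball_mem_nhds w (by positivity))
      have h1 : η ≤ dist (lab d) w := by
        by_contra hcon
        push Not at hcon
        exact hball (mem_ball.2 hcon) (Or.inl (hlab d hd).1.1)
      have h2 := hgoodball d hd v hvd
      have h3 : dist v w < η / 2 := mem_ball.1 hv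
      have h4 := dist_triangle_left (lab d) w v
      refine hgood d hd w ?_
      have h5 := dist_triangle_left w (lab d) v
      linarith
  -- (gamma)
  have hgamma : ∀ t, ∀ w ∈ closure (B t), w ∈ X → t ⊆ T w := by
    intro t w hw hwX
    rcases hsX with hsX | hDc
    · obtain ⟨δ, hδ, hball⟩ := Metric.mem_nhds_iff.1 (nhd_of_closed hc w)
      obtain ⟨v, hv, d, hd, hvd, rfl⟩ := mem_closure_iff_nhds.1 hw (ball w (δ / 2))
        (ball_mem_nhds w (by positivity))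
      have h2 := hgoodball d hd v hvd
      have h3 : dist v w < δ / 2 := mem_ball.1 hv
      have h4 := (hr (lab d) (hlab d hd).1).2.2 w hwX
      have h5 := dist_triangle_left (lab d) w v
      have h6 : dist (lab d) w < δ := by linarith
      exact (hsX (lab d) (hlab d hd).1).trans (hball (mem_ball.2 h6))
    · exfalso
      have hwD : w ∈ Dᶜ := fun h => h.2 hwX
      obtain ⟨δ, hδ, hball⟩ := Metric.mem_nhds_iff.1 (hDc.isOpen_compl.mem_nhds hwD)
      obtain ⟨v, hv, d, hd, hvd, rfl⟩ := mem_closure_iff_nhds.1 hw (ball w (δ / 2))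
        (ball_mem_nhds w (by positivity))
      have h2 := hgoodball d hd v hvd
      have h3 : dist v w < δ / 2 := mem_ball.1 hv
      have h4 := (hr (lab d) (hlab d hd).1).2.2 w hwX
      have h5 := dist_triangle_left (lab d) w v
      have h6 : dist (lab d) w < δ := by linarith
      exact hball (mem_ball.2 h6) (hlab d hd).1
  -- the new palettes
  let T' : ℂ → Set ι := fun w => {i | (∃ t, w ∈ closure (B t) ∧ i ∈ K t w) ∨ (i ∈ T w ∧ w ∉ N)}
  have hT'X : ∀ w ∈ X, T' w ⊆ T w := by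
    rintro w hw i (⟨t, ht, hi⟩ | ⟨hi, -⟩)
    · exact hgamma t w ht hw (hKs t w hi)
    · exact hi
  refine ⟨T', fun i => ?_, fun w => ?_, ?_, hT'X, fun w hwX => ?_⟩
  · have h1 : {x | i ∈ T' x} = (⋃ t, closure (B t) ∩ {x | i ∈ K t x}) ∪ ({x | i ∈ T x} ∩ Nᶜ) := by
      ext x
      simp [T']
    rw [h1]
    exact (isClosed_iUnion_of_finite fun t => isClosed_closure.inter (hKc t i)).union
      ((hc i).inter hNo.isClosed_compl)
  · by_cases hwN : w ∈ N
    · obtain ⟨d, hd, hwd⟩ := hwN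
      have h1 : w ∈ closure (B (s (lab d))) := subset_closure ⟨d, hd, hwd, rfl⟩
      have h2 := hgoodball d hd w hwd
      have h3 := hr0 (lab d)
      obtain ⟨i, hi⟩ := (hK (s (lab d)) w (hgood d hd w (by linarith))).1
      exact ⟨i, Or.inl ⟨_, h1, hi⟩⟩
    · obtain ⟨i, hi⟩ := hn w
      exact ⟨i, Or.inr ⟨hi, hwN⟩⟩
  · rintro w i (⟨t, ht, hi⟩ | ⟨hi, -⟩)
    · by_cases hwX : w ∈ X
      · exact hs w (hgamma t w ht hwX (hKs t w hi))
      · exact (hK t w (hbeta t w ht hwX)).2 hi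
    · exact hs w hi
  · by_cases hwN : w ∈ N
    · right
      obtain ⟨d, hd, hwd⟩ := hwN
      have h1 : T' w ⊆ s (lab d) := by
        rintro i (⟨t, ht, hi⟩ | ⟨-, hi⟩)
        · rw [← halpha t w ht d hd hwd]
          exact hKs t w hi
        · exact absurd ⟨d, hd, hwd⟩ hi
      refine ⟨lab d, (hlab d hd).1, ?_, h1⟩
      have h2 := hgoodball d hd w hwd
      have h4 := hr0 (lab d)
      exact (hr (lab d) (hlab d hd).1).1 w (by linarith)
    · left
      intro hwZ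
      exact hwN ⟨w, ⟨hwZ, hwX⟩, by rw [dist_self]; exact hρ0 w⟩

/-- one step: if all palettes are minimal or have at most `n + 1` colours, then ... at most `n` -/
theorem min_step' {P : ℂ → Set ι} {K : Set ι → ℂ → Set ι}
    (hKs : ∀ s x, K s x ⊆ s) (hKc : ∀ s i, IsClosed {x | i ∈ K s x})
    (hK : ∀ s x, (∃ i ∈ s, i ∈ P x) → (K s x).Nonempty ∧ K s x ⊆ P x)
    {Z : Set ℂ} (hZ : IsClosed Z) (hZd : IsTotallyDisconnected Z) {n n₀ : ℕ} (hn₀ : n₀ ≤ n)
    (hZn : ∀ x, x ∉ Z → (P x).ncard ≤ n₀)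
    {T : ℂ → Set ι} (hc : ∀ i, IsClosed {x | i ∈ T x}) (hn : ∀ x, (T x).Nonempty)
    (hs : ∀ x, T x ⊆ P x) (hT : ∀ x, (T x).ncard ≤ n + 1 ∨ MinAt P (T x) x) {R : ℂ → ℂ → Prop}
    (hR : ∀ x, ∀ᶠ w in 𝓝 x, R x w) (hRr : ∀ x, R x x) :
    ∃ T' : ℂ → Set ι, (∀ i, IsClosed {x | i ∈ T' x}) ∧ (∀ x, (T' x).Nonempty) ∧
      (∀ x, T' x ⊆ P x) ∧ (∀ x, (T' x).ncard ≤ n ∨ MinAt P (T' x) x) ∧
      ∀ w, (T' w).ncard ≤ n₀ ∨ ∃ x, R x w ∧ T' w ⊆ T x := by
  classical
  set X : Set ℂ := {x | n + 1 ≤ (T x).ncard ∧ MinAt P (T x) x} with hX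
  have hXc : IsClosed X := by
    rw [← isOpen_compl_iff, isOpen_iff_mem_nhds]
    intro x hx
    by_cases h1 : (T x).ncard ≤ n
    · filter_upwards [nhd_of_closed hc x] with w hw hwX
      have h2 := Set.ncard_le_ncard hw (Set.toFinite _)
      have h3 := hwX.1
      omega
    · have h2 : ¬ MinAt P (T x) x := fun h3 => hx ⟨by omega, h3⟩
      have h4 : (T x).ncard ≤ n + 1 := (hT x).resolve_right h2
      unfold MinAt at h2
      push Not at h2
      obtain ⟨s, hsT, hsuf, hne⟩ := h2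
      filter_upwards [nhd_of_closed hc x, hsuf.nhd] with w hw hw' hwX
      have h5 : T w = T x := Set.eq_of_subset_of_ncard_le hw (h4.trans hwX.1) (Set.toFinite _)
      exact hne ((hwX.2 s (by rw [h5]; exact hsT) hw').trans h5)
  -- a sufficient palette with at most `n` colours off `X`
  have hsel : ∀ x, ∃ s : Set ι, x ∉ X → s ⊆ T x ∧ s.ncard ≤ n ∧ Suff P s x := by
    intro x
    by_cases h1 : (T x).ncard ≤ n
    · exact ⟨T x, fun _ => ⟨Subset.rfl, h1, suff_self hc hn hs x⟩⟩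
    · by_cases h2 : MinAt P (T x) x
      · exact ⟨∅, fun hx => absurd ⟨by omega, h2⟩ hx⟩
      · have h4 : (T x).ncard ≤ n + 1 := (hT x).resolve_right h2
        unfold MinAt at h2
        push Not at h2
        obtain ⟨s, hsT, hsuf, hne⟩ := h2
        have h5 := Set.ncard_lt_ncard (hsT.ssubset_of_ne hne) (Set.toFinite _)
        exact ⟨s, fun _ => ⟨hsT, by omega, hsuf⟩⟩
  choose s hsel using hsel
  obtain ⟨T', hT'c, hT'n, hT's, hT'X, hT'⟩ := glue_step hKs hKc hK hZ hZd hXc hc hn hs s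
    (fun x hx => (hsel x hx.2).2.2) (Or.inl fun x hx => (hsel x hx.2).1) hR
  refine ⟨T', hT'c, hT'n, hT's, fun w => ?_, fun w => ?_⟩
  · by_cases hwX : w ∈ X
    · right
      have h1 : T' w = T w := hwX.2 (T' w) (hT'X w hwX) (suff_self hT'c hT'n hT's w)
      rw [h1]
      exact hwX.2
    · left
      rcases hT' w hwX with h1 | ⟨x, hx, -, h2⟩
      · exact ((Set.ncard_le_ncard (hT's w) (Set.toFinite _)).trans (hZn w h1)).trans hn₀
      · exact (Set.ncard_le_ncard h2 (Set.toFinite _)).trans (hsel x hx.2).2.1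
  · by_cases hwX : w ∈ X
    · exact Or.inr ⟨w, hRr w, hT'X w hwX⟩
    · rcases hT' w hwX with h1 | ⟨x, hx, h3, h2⟩
      · left
        exact (Set.ncard_le_ncard (hT's w) (Set.toFinite _)).trans (hZn w h1)
      · exact Or.inr ⟨x, h3, h2.trans (hsel x hx.2).1⟩

/-- **minimal covers with control of the order** -/
theorem exists_min_cover' {P : ℂ → Set ι} {K : Set ι → ℂ → Set ι}
    (hKs : ∀ s x, K s x ⊆ s) (hKc : ∀ s i, IsClosed {x | i ∈ K s x})
    (hK : ∀ s x, (∃ i ∈ s, i ∈ P x) → (K s x).Nonempty ∧ K s x ⊆ P x)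
    {Z : Set ℂ} (hZ : IsClosed Z) (hZd : IsTotallyDisconnected Z) {n : ℕ}
    (hZn : ∀ x, x ∉ Z → (P x).ncard ≤ n)
    {T : ℂ → Set ι} (hc : ∀ i, IsClosed {x | i ∈ T x}) (hn : ∀ x, (T x).Nonempty)
    (hs : ∀ x, T x ⊆ P x) {R : ℂ → ℂ → Prop}
    (hR : ∀ x, ∀ᶠ w in 𝓝 x, R x w) (hRr : ∀ x, R x x)
    (hRt : ∀ x y z, R x y → R y z → R x z) :
    ∃ T' : ℂ → Set ι, (∀ i, IsClosed {x | i ∈ T' x}) ∧ (∀ x, (T' x).Nonempty) ∧
      (∀ x, T' x ⊆ P x) ∧ (∀ x, ∀ i ∈ T' x, ∃ᶠ w in 𝓝 x, T' w = {i}) ∧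
        (∀ x, n < (T' x).ncard → MinAt P (T' x) x) ∧
        ∀ w, (T' w).ncard ≤ n ∨ ∃ x, R x w ∧ T' w ⊆ T x := by
  classical
  have key : ∀ m : ℕ, ∃ T' : ℂ → Set ι, (∀ i, IsClosed {x | i ∈ T' x}) ∧
      (∀ x, (T' x).Nonempty) ∧ (∀ x, T' x ⊆ P x) ∧
      (∀ x, (T' x).ncard ≤ n + (Nat.card ι - m) ∨ MinAt P (T' x) x) ∧
      ∀ w, (T' w).ncard ≤ n ∨ ∃ x, R x w ∧ T' w ⊆ T x := by
    intro m
    induction m with
    | zero =>
      refine ⟨T, hc, hn, hs, fun x => Or.inl ?_, fun w => Or.inr ⟨w, hRr w, Subset.rfl⟩⟩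
      have h1 := Set.ncard_le_card (T x)
      omega
    | succ m ih =>
      obtain ⟨T', hc', hn', hs', hT', hd'⟩ := ih
      by_cases hm : Nat.card ι ≤ m
      · refine ⟨T', hc', hn', hs', fun x => ?_, hd'⟩
        rcases hT' x with h1 | h1
        · left; omega
        · exact Or.inr h1
      · obtain ⟨T'', hc'', hn'', hs'', hT'', hd''⟩ := min_step' hKs hKc hK hZ hZd
          (n := n + (Nat.card ι - (m + 1))) (n₀ := n) (by omega) hZn hc' hn' hs' (fun x => by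
          rcases hT' x with h1 | h1
          · left; omega
          · exact Or.inr h1) hR hRr
        refine ⟨T'', hc'', hn'', hs'', hT'', fun w => ?_⟩
        rcases hd'' w with h1 | ⟨x, h1, h2⟩
        · exact Or.inl h1
        · rcases hd' x with h3 | ⟨y, h3, h4⟩
          · exact Or.inl ((Set.ncard_le_ncard h2 (Set.toFinite _)).trans h3)
          · exact Or.inr ⟨y, hRt y x w h3 h1, h2.trans h4⟩
  obtain ⟨T₁, hc₁, hn₁, hs₁, hT₁, hd₁⟩ := key (Nat.card ι)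
  obtain ⟨T', hc', hn', hs', hp⟩ := exists_pure T₁ hc₁ hn₁
  have hsP : ∀ x, T' x ⊆ P x := fun x => (hs' x).trans (hs₁ x)
  refine ⟨T', hc', hn', hsP, hp, fun x hx => ?_, fun w => ?_⟩
  · have h1 : MinAt P (T₁ x) x := by
      refine (hT₁ x).resolve_left fun h2 => ?_
      have h3 := Set.ncard_le_ncard (hs' x) (Set.toFinite _)
      omega
    have h2 : T' x = T₁ x := h1 (T' x) (hs' x) (suff_self hc' hn' hsP x)
    rw [h2]
    exact h1
  · rcases hd₁ w with h1 | ⟨x, h1, h2⟩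
    · exact Or.inl ((Set.ncard_le_ncard (hs' w) (Set.toFinite _)).trans h1)
    · exact Or.inr ⟨x, h1, (hs' w).trans h2⟩

/-- **Separation** in a totally disconnected closed set: a closed set `X` in an open set `V` -/
theorem exists_sep {Z X V : Set ℂ} (hZ : IsClosed Z) (hZd : IsTotallyDisconnected Z)
    (hX : IsClosed X) (hXZ : X ⊆ Z) (hV : IsOpen V) (hXV : X ⊆ V) :
    ∃ C : Set ℂ, X ⊆ C ∧ C ⊆ Z ∧ C ⊆ V ∧ IsClosed C ∧ IsClosed (Z \ C) := by
  classical
  have hrad : ∀ x, ∃ r : ℝ, 0 < r ∧ (x ∈ X → ball x r ⊆ V) ∧ (x ∉ X → ∀ p ∈ X, r ≤ dist p x) := by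
    intro x
    by_cases hx : x ∈ X
    · obtain ⟨r, hr, hball⟩ := Metric.isOpen_iff.1 hV x (hXV hx)
      exact ⟨r, hr, fun _ => hball, fun h => absurd hx h⟩
    · obtain ⟨r, hr, hball⟩ := Metric.isOpen_iff.1 hX.isOpen_compl x hx
      refine ⟨r, hr, fun h => absurd h hx, fun _ p hp => ?_⟩
      by_contra hcon
      push Not at hcon
      exact hball (mem_ball.2 hcon) hp
  choose r hr0 hr1 hr2 using hrad
  obtain ⟨lab, hlab, hloc⟩ := exists_lab hZ.isLocallyClosed hZd r (fun x _ => hr0 x)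
  have hclopen : ∀ A : Set ℂ, IsClosed {z | z ∈ Z ∧ lab z ∈ A} := by
    intro A
    rw [← isOpen_compl_iff, isOpen_iff_mem_nhds]
    intro z hz
    by_cases hzZ : z ∈ Z
    · have hzA : lab z ∉ A := fun h => hz ⟨hzZ, h⟩
      filter_upwards [hloc z hzZ] with w hw hwC
      exact hzA (hw hwC.1 ▸ hwC.2)
    · filter_upwards [hZ.isOpen_compl.mem_nhds hzZ] with w hw hwC
      exact hw hwC.1
  refine ⟨{z | z ∈ Z ∧ lab z ∈ X}, fun z hz => ⟨hXZ hz, ?_⟩, fun z hz => hz.1, fun z hz => ?_,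
    hclopen X, ?_⟩
  · by_contra hcon
    have h1 := hr2 (lab z) hcon z hz
    have h2 := (hlab z (hXZ hz)).2
    linarith
  · exact hr1 (lab z) hz.2 (mem_ball.2 (hlab z hz.1).2)
  · have h1 : Z \ {z | z ∈ Z ∧ lab z ∈ X} = {z | z ∈ Z ∧ lab z ∈ Xᶜ} := by
      ext z
      constructor
      · rintro ⟨h1, h2⟩
        exact ⟨h1, fun h3 => h2 ⟨h1, h3⟩⟩
      · rintro ⟨h1, h2⟩
        exact ⟨h1, fun h3 => h2 h3.2⟩
    rw [h1]
    exact hclopen Xᶜ

theorem suf_iff_PU {k : ℕ} {U : Fin k → Set ℂ} (i : Fin k) (w : ℂ) :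
    (w ∈ U i ∨ (w ∈ XX U ∧ i ∈ Pal U w)) ↔ i ∈ PU U w := by
  constructor
  · rintro (h1 | ⟨h1, h2⟩)
    · exact ⟨subset_closure h1, fun _ => h1⟩
    · exact ⟨h2, fun h3 => absurd h1 h3⟩
  · rintro ⟨h1, h2⟩
    by_cases hX : w ∈ XX U
    · exact Or.inr ⟨hX, h1⟩
    · exact Or.inl (h2 hX)

/-- **Existence with control of the order.** -/
theorem exists_frame {U : Fin 6 → Set ℂ} (h : Mx U)
    (hmax : ∀ i x, (∀ y ∈ closure (U i), dist x y ≠ 1) → x ∈ U i) {D : Set ℂ} (hD : IsClosed D)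
    {m : ℕ} (hm : 3 ≤ m)
    (hsuf : ∀ z ∈ D, z ∈ XX U → ∃ s : Set (Fin 6), s.ncard ≤ m ∧
      ∀ᶠ w in 𝓝 z, ∃ i ∈ s, w ∈ U i ∨ (w ∈ XX U ∧ i ∈ Pal U w)) {V : Set ℂ} (hV : IsOpen V)
    (hV3 : ∀ z, z ∉ V → z ∈ XX U → ∃ s : Set (Fin 6), s.ncard ≤ 3 ∧
      ∀ᶠ w in 𝓝 z, ∃ i ∈ s, w ∈ U i ∨ (w ∈ XX U ∧ i ∈ Pal U w)) :
    ∃ T, Irr U T ∧
      (∀ z, 4 ≤ (T z).ncard → ∀ s, s ⊆ T z → s ≠ T z →
        ¬ ∀ᶠ w in 𝓝 z, ∃ i ∈ s, w ∈ U i ∨ (w ∈ XX U ∧ i ∈ Pal U w)) ∧
      (∀ z ∈ D, (T z).ncard ≤ m) ∧ ∀ z, 4 ≤ (T z).ncard → z ∈ V := by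
  classical
  obtain ⟨hZ, hZd⟩ := td_XX h
  set Z : Set ℂ := XX U ∩ {x | 4 ≤ (Pal U x).ncard} with hZdef
  have hKs : ∀ (s : Set (Fin 6)) x, Ks U s x ⊆ s := fun s x i hi => hi.1
  have hZn : ∀ x, x ∉ Z → (PU U x).ncard ≤ 3 := by
    intro x hx
    by_cases hX : x ∈ XX U
    · have h1 : ¬ 4 ≤ (Pal U x).ncard := fun h4 => hx ⟨hX, h4⟩
      have h2 := Set.ncard_le_ncard (s := PU U x) (t := Pal U x) (fun i hi => hi.1)
        (Set.toFinite _)
      omega
    · exact (Set.ncard_le_ncard (t := {i | x ∈ U i}) (fun i hi => hi.2 hX)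
        (Set.toFinite _)).trans (h.K0_three x)
  have hconv : ∀ (s : Set (Fin 6)) z, (∀ᶠ w in 𝓝 z, ∃ i ∈ s, w ∈ U i ∨
      (w ∈ XX U ∧ i ∈ Pal U w)) → Suff (PU U) s z := by
    intro s z hs
    filter_upwards [hs] with w hw
    obtain ⟨i, hi, hw⟩ := hw
    exact ⟨i, hi, (suf_iff_PU i w).1 hw⟩
  -- the first cover: at most `m` colours on `D`
  have hsel : ∀ x, ∃ s : Set (Fin 6), x ∈ Z ∩ D → s.ncard ≤ m ∧ Suff (PU U) s x := by
    intro x
    by_cases hx : x ∈ Z ∩ D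
    · obtain ⟨s, h1, h2⟩ := hsuf x hx.2 hx.1.1
      exact ⟨s, fun _ => ⟨h1, hconv s x h2⟩⟩
    · exact ⟨∅, fun h => absurd h hx⟩
  choose s hsel using hsel
  obtain ⟨T₀, hc₀, hn₀, hs₀, -, hT₀⟩ := glue_step (P := PU U) (K := Ks U) hKs
    (fun s i => Ks_closed U s i) (fun s x hx => Ks_good h s x hx)
    (Z := Z ∩ D) (X := ∅) (hZ.inter hD)
    (fun t ht htp => hZd t (ht.trans inter_subset_left) htp) isClosed_empty (T := Kst U)
    (isClosed_Fst U) h.Kst_nonempty (fun x i hi => ⟨Kst_sub x hi, fun hX => h.Kst_mem hX hi⟩) s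
    (fun x hx => (hsel x hx.1).2) (Or.inr (by rw [sdiff_empty]; exact hZ.inter hD))
    (R := fun _ _ => True) (fun _ => Eventually.of_forall fun _ => trivial)
  have hT₀D : ∀ x ∈ D, (T₀ x).ncard ≤ m := by
    intro x hx
    rcases hT₀ x (notMem_empty x) with h1 | ⟨y, hy, -, h2⟩
    · have h3 : x ∉ Z := fun h4 => h1 ⟨h4, hx⟩
      exact ((Set.ncard_le_ncard (hs₀ x) (Set.toFinite _)).trans (hZn x h3)).trans hm
    · exact (Set.ncard_le_ncard h2 (Set.toFinite _)).trans (hsel y hy.1).1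
  -- the second cover: at most three colours off a set `C`
  set X : Set ℂ := {x | x ∈ Z ∧ ¬ ∃ s : Set (Fin 6), s.ncard ≤ 3 ∧ Suff (PU U) s x} with hX
  have hXc : IsClosed X := by
    rw [← isOpen_compl_iff, isOpen_iff_mem_nhds]
    intro x hx
    by_cases hxZ : x ∈ Z
    · have h1 : ∃ s : Set (Fin 6), s.ncard ≤ 3 ∧ Suff (PU U) s x := by
        by_contra hcon
        exact hx ⟨hxZ, hcon⟩
      obtain ⟨s, h1, h2⟩ := h1
      filter_upwards [h2.nhd] with w hw hwX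
      exact hwX.2 ⟨s, h1, hw⟩
    · filter_upwards [hZ.isOpen_compl.mem_nhds hxZ] with w hw hwX
      exact hw hwX.1
  have hXV : X ⊆ V := by
    intro x hx
    by_contra hxV
    obtain ⟨s, h1, h2⟩ := hV3 x hxV hx.1.1
    exact hx.2 ⟨s, h1, hconv s x h2⟩
  obtain ⟨C, hXC, hCZ, hCV, hCc, hCc'⟩ := exists_sep hZ hZd hXc (fun x hx => hx.1) hV hXV
  have hsel' : ∀ x, ∃ s : Set (Fin 6), x ∈ Z \ C → s.ncard ≤ 3 ∧ Suff (PU U) s x := by
    intro x
    by_cases hx : x ∈ Z \ C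
    · have h1 : ∃ s : Set (Fin 6), s.ncard ≤ 3 ∧ Suff (PU U) s x := by
        by_contra hcon
        exact hx.2 (hXC ⟨hx.1, hcon⟩)
      obtain ⟨s, h1, h2⟩ := h1
      exact ⟨s, fun _ => ⟨h1, h2⟩⟩
    · exact ⟨∅, fun h => absurd h hx⟩
  choose s' hsel' using hsel'
  obtain ⟨T₁, hc₁, hn₁, hs₁, hT₁C, hT₁⟩ := glue_step (P := PU U) (K := Ks U) hKs
    (fun s i => Ks_closed U s i) (fun s x hx => Ks_good h s x hx)
    (Z := Z) (X := C) hZ hZd hCc hc₀ hn₀ hs₀ s' (fun x hx => (hsel' x hx).2) (Or.inr hCc')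
    (R := fun _ _ => True) (fun _ => Eventually.of_forall fun _ => trivial)
  have hT₁3 : ∀ w, w ∉ C → (T₁ w).ncard ≤ 3 := by
    intro w hw
    rcases hT₁ w hw with h1 | ⟨y, hy, -, h2⟩
    · exact (Set.ncard_le_ncard (hs₁ w) (Set.toFinite _)).trans (hZn w h1)
    · exact (Set.ncard_le_ncard h2 (Set.toFinite _)).trans (hsel' y hy).1
  have hT₁D : ∀ x ∈ D, (T₁ x).ncard ≤ m := by
    intro x hx
    by_cases hxC : x ∈ C
    · exact (Set.ncard_le_ncard (hT₁C x hxC) (Set.toFinite _)).trans (hT₀D x hx)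
    · exact (hT₁3 x hxC).trans hm
  -- minimal palettes
  obtain ⟨T, hc, hn, hs, hp, hmin, hd⟩ := exists_min_cover' (P := PU U) (K := Ks U) hKs
    (fun s i => Ks_closed U s i) (fun s x hx => Ks_good h s x hx)
    hZ hZd (n := 3) hZn (T := T₁) hc₁ hn₁ hs₁
    (R := fun x w => (x ∈ V → w ∈ V) ∧ (x ∈ Dᶜ → w ∈ Dᶜ)) (fun x => by
      have h1 : ∀ᶠ w in 𝓝 x, x ∈ V → w ∈ V := by
        by_cases hx : x ∈ V
        · filter_upwards [hV.mem_nhds hx] with w hw _ using hw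
        · exact Eventually.of_forall fun w h => absurd h hx
      have h2 : ∀ᶠ w in 𝓝 x, x ∈ Dᶜ → w ∈ Dᶜ := by
        by_cases hx : x ∈ Dᶜ
        · filter_upwards [hD.isOpen_compl.mem_nhds hx] with w hw _ using hw
        · exact Eventually.of_forall fun w h => absurd h hx
      filter_upwards [h1, h2] with w h3 h4 using ⟨h3, h4⟩) (fun x => ⟨id, id⟩)
    (fun x y z h1 h2 => ⟨fun h3 => h2.1 (h1.1 h3), fun h3 => h2.2 (h1.2 h3)⟩)
  refine ⟨T, ⟨h, hmax, hc, hn, fun x i hi => (hs x hi).1, fun x hX i hi => (hs x hi).2 hX, hp⟩,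
    fun z hz s hsz hne hsuf => hne (hmin z hz s hsz (hconv s z hsuf)), fun z hz => ?_,
    fun z hz => ?_⟩
  · rcases hd z with h1 | ⟨x, h1, h2⟩
    · exact h1.trans hm
    · have hxD : x ∈ D := by
        by_contra hxD
        exact h1.2 hxD hz
      exact (Set.ncard_le_ncard h2 (Set.toFinite _)).trans (hT₁D x hxD)
  · rcases hd z with h1 | ⟨x, h1, h2⟩
    · omega
    · have h3 := Set.ncard_le_ncard h2 (Set.toFinite _)
      have hxC : x ∈ C := by
        by_contra hxC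
        have := hT₁3 x hxC
        omega
      exact h1.1 (hCV hxC)

/-- **Existence with control of the order**, one bound. -/
theorem exists_irr_min_le_of {U : Fin 6 → Set ℂ} (h : Mx U)
    (hmax : ∀ i x, (∀ y ∈ closure (U i), dist x y ≠ 1) → x ∈ U i) {D : Set ℂ} (hD : IsClosed D)
    {m : ℕ} (hm : 3 ≤ m)
    (hsuf : ∀ z ∈ D, z ∈ XX U → ∃ s : Set (Fin 6), s.ncard ≤ m ∧
      ∀ᶠ w in 𝓝 z, ∃ i ∈ s, w ∈ U i ∨ (w ∈ XX U ∧ i ∈ Pal U w)) :
    ∃ T, Irr U T ∧
      (∀ z, 4 ≤ (T z).ncard → ∀ s, s ⊆ T z → s ≠ T z →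
        ¬ ∀ᶠ w in 𝓝 z, ∃ i ∈ s, w ∈ U i ∨ (w ∈ XX U ∧ i ∈ Pal U w)) ∧
      ∀ z ∈ D, (T z).ncard ≤ m := by
  obtain ⟨T, h1, h2, h3, -⟩ := exists_frame h hmax hD hm hsuf isOpen_univ
    (fun z hz => absurd (mem_univ z) hz)
  exact ⟨T, h1, h2, h3⟩

/-- a closed set without unit distance has an open neighbourhood without unit distance -/
theorem exists_open_free {X : Set ℂ} (hX : IsClosed X) (hfree : ∀ x ∈ X, ∀ y ∈ X, dist x y ≠ 1) :
    ∃ V, IsOpen V ∧ X ⊆ V ∧ ∀ x ∈ V, ∀ y ∈ V, dist x y ≠ 1 := by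
  classical
  have hrad : ∀ x, ∃ r : ℝ, 0 < r ∧ (x ∈ X → ∀ y ∈ X, 4 * r ≤ |dist x y - 1|) := by
    intro x
    by_cases hx : x ∈ X
    · have hK : IsCompact (X ∩ closedBall x 2) := (isCompact_closedBall x 2).inter_left hX
      have hcont : Continuous fun y => |dist x y - 1| := by fun_prop
      obtain ⟨y, hy, hmin⟩ := hK.exists_isMinOn ⟨x, hx, mem_closedBall_self (by norm_num)⟩
        hcont.continuousOn
      have hpos : 0 < |dist x y - 1| := abs_pos.2 (sub_ne_zero.2 (hfree x hx y hy.1))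
      refine ⟨min (|dist x y - 1|) 1 / 4, by positivity, fun _ z hz => ?_⟩
      by_cases hz2 : dist z x ≤ 2
      · have h1 : |dist x y - 1| ≤ |dist x z - 1| := hmin ⟨hz, mem_closedBall.2 hz2⟩
        have h2 := min_le_left (|dist x y - 1|) 1
        linarith
      · push Not at hz2
        have h2 := min_le_right (|dist x y - 1|) 1
        have h3 : 1 ≤ |dist x z - 1| := by
          rw [dist_comm] at hz2
          exact le_trans (by linarith) (le_abs_self _)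
        linarith
    · exact ⟨1, one_pos, fun h => absurd h hx⟩
  choose r hr0 hr using hrad
  refine ⟨⋃ x ∈ X, ball x (r x), isOpen_biUnion fun x _ => isOpen_ball, fun x hx =>
    mem_iUnion₂.2 ⟨x, hx, mem_ball_self (hr0 x)⟩, fun p hp q hq hpq => ?_⟩
  obtain ⟨x, hx, hpx⟩ := mem_iUnion₂.1 hp
  obtain ⟨y, hy, hqy⟩ := mem_iUnion₂.1 hq
  rw [mem_ball] at hpx hqy
  have h1 := dist_triangle4 x p q y
  have h2 := dist_triangle4 p x y q
  rw [dist_comm x p] at h1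
  rw [dist_comm y q] at h2
  have h3 := hr x hx y hy
  have h4 := hr y hy x hx
  rw [dist_comm y x] at h4
  have h5 : |dist x y - 1| < r x + r y := by
    rw [abs_lt]
    constructor <;> linarith
  linarith [hr0 x, hr0 y]

end Vale.Agent.P032.S5.H926
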