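import Vale.Agent.P032.S5.H483.Ess
import Vale.Agent.P032.ND.Order

/-!
# P032: closed covers of the plane by six sets with unit-free interiors

Every such cover has in every disc of radius `6` points no neighbourhood of which is covered by
three of its sets (so they lie in at least four of them), and in every disc of radius `8` centres
of arcs of unit circles contained, with the centre, in two of its sets.
-/

open Set Filter Topology Metric

noncomputable section

namespace Vale.Agent.P032.S5.H926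

open Vale.Agent.P032.Six

/-- if finitely many closed sets cover a neighbourhood, so do the closures of their
interiors -/
theorem eventually_reg {k : ℕ} {F : Fin k → Set ℂ} (hF : ∀ i, IsClosed (F i)) {s : Set (Fin k)}
    {x : ℂ} (hx : (⋃ i ∈ s, F i) ∈ 𝓝 x) :
    ∀ᶠ w in 𝓝 x, ∃ i ∈ s, w ∈ closure (interior (F i)) := by
  classical
  obtain ⟨O, hO, hOo, hxO⟩ := _root_.mem_nhds_iff.1 hx
  filter_upwards [hOo.mem_nhds hxO] with y hy
  -- a closed cover of the plane
  set G : Option (Fin k) → Set ℂ := fun j => j.elim Oᶜ fun i => if i ∈ s then F i else ∅ with hG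
  have hGc : ∀ j, IsClosed (G j) := by
    rintro (_ | i)
    · exact hOo.isClosed_compl
    · show IsClosed (if i ∈ s then F i else ∅)
      split_ifs
      · exact hF i
      · exact isClosed_empty
  have hcov : (⋃ j, G j) = univ := by
    rw [eq_univ_iff_forall]
    intro z
    by_cases hz : z ∈ O
    · obtain ⟨i, hi, hzi⟩ := mem_iUnion₂.1 (hO hz)
      refine mem_iUnion.2 ⟨some i, ?_⟩
      show z ∈ if i ∈ s then F i else ∅
      rw [if_pos hi]; exact hzi
    · exact mem_iUnion.2 ⟨none, hz⟩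
  have h1 : y ∈ closure (⋃ j, interior (G j)) := dense_iUnion_interior_of_closed hGc hcov y
  rw [closure_iUnion_of_finite] at h1
  obtain ⟨j, hj⟩ := mem_iUnion.1 h1
  rcases j with _ | i
  · exact absurd hy ((hGc none).closure_subset_iff.2 interior_subset hj)
  · change y ∈ closure (interior (if i ∈ s then F i else ∅)) at hj
    by_cases hi : i ∈ s
    · rw [if_pos hi] at hj
      exact ⟨i, hi, hj⟩
    · rw [if_neg hi, interior_empty, closure_empty] at hj
      exact absurd hj (notMem_empty y)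

/-- **Essential points.** -/
theorem exists_ess {F : Fin 6 → Set ℂ} (hF : ∀ i, IsClosed (F i)) (hcov : (⋃ i, F i) = univ)
    (hfree : ∀ i, ∀ x ∈ interior (F i), ∀ y ∈ interior (F i), dist x y ≠ 1) (c : ℂ) :
    ∃ x, dist x c ≤ 6 ∧ ∀ s : Set (Fin 6), s.ncard ≤ 3 → (⋃ i ∈ s, F i) ∉ 𝓝 x := by
  obtain ⟨U, hU, hUF⟩ := exists_Mx (fun i => interior (F i)) (fun i => isOpen_interior) hfree
    (dense_iUnion_interior_of_closed hF hcov)
  obtain ⟨z, -, hz, hess⟩ := hU.exists_ess c
  refine ⟨z, hz, fun s hs hn => hess s hs ?_⟩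
  filter_upwards [eventually_reg hF hn] with w hw
  obtain ⟨i, hi, hwi⟩ := hw
  exact ⟨i, hi, closure_mono (hUF i) hwi⟩

/-- a point no neighbourhood of which is covered by three of the sets is in at least four -/
theorem four_of_ess {F : Fin 6 → Set ℂ} (hF : ∀ i, IsClosed (F i)) (hcov : (⋃ i, F i) = univ)
    {x : ℂ} (hx : ∀ s : Set (Fin 6), s.ncard ≤ 3 → (⋃ i ∈ s, F i) ∉ 𝓝 x) :
    4 ≤ {i | x ∈ F i}.ncard := by
  by_contra hcon
  refine hx {i | x ∈ F i} (by omega) ?_
  filter_upwards [pal_nhd F x] with z hz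
  have h1 : z ∈ ⋃ i, F i := by rw [hcov]; trivial
  obtain ⟨i, hi⟩ := mem_iUnion.1 h1
  have h2 : i ∈ Pal F x := hz (subset_closure hi)
  refine mem_iUnion₂.2 ⟨i, ?_, hi⟩
  have h3 : x ∈ closure (F i) := h2
  rwa [(hF i).closure_eq] at h3

/-- **Points of order four.** -/
theorem exists_four {F : Fin 6 → Set ℂ} (hF : ∀ i, IsClosed (F i)) (hcov : (⋃ i, F i) = univ)
    (hfree : ∀ i, ∀ x ∈ interior (F i), ∀ y ∈ interior (F i), dist x y ≠ 1) (c : ℂ) :
    ∃ x, dist x c ≤ 6 ∧ 4 ≤ {i | x ∈ F i}.ncard := by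
  obtain ⟨x, hx, h1⟩ := exists_ess hF hcov hfree c
  exact ⟨x, hx, four_of_ess hF hcov h1⟩

/-- the regularised cover -/
theorem reg_cover {F : Fin 6 → Set ℂ} (hF : ∀ i, IsClosed (F i)) (hcov : (⋃ i, F i) = univ) :
    (⋃ i, closure (interior (F i))) = univ := by
  rw [eq_univ_iff_forall]
  intro x
  have h1 : x ∈ closure (⋃ i, interior (F i)) := dense_iUnion_interior_of_closed hF hcov x
  rwa [closure_iUnion_of_finite] at h1

/-- **Unit arcs.** -/
theorem exists_arc {F : Fin 6 → Set ℂ} (hF : ∀ i, IsClosed (F i)) (hcov : (⋃ i, F i) = univ)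
    (hfree : ∀ i, ∀ x ∈ interior (F i), ∀ y ∈ interior (F i), dist x y ≠ 1) (c : ℂ) :
    ∃ i j, i ≠ j ∧ ∃ z p, dist z c ≤ 8 ∧ z ∈ F i ∧ z ∈ F j ∧ dist p z = 1 ∧
      ∀ᶠ q in 𝓝[sphere z 1] p, q ∈ F i ∧ q ∈ F j := by
  by_contra hcon
  have h1 := ND.order_closed hF hcov hfree (c := c) (r := 6) (by
    intro i j hij z hz p hi hj hp hq
    refine hcon ⟨i, j, hij, z, p, ?_, hi, hj, hp, hq⟩
    rw [mem_closedBall] at hz
    linarith)
  obtain ⟨x, hx, h4⟩ := exists_four (F := fun i => closure (interior (F i)))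
    (fun i => isClosed_closure) (reg_cover hF hcov) (fun i => by
      have h2 : interior (closure (interior (F i))) ⊆ interior (F i) :=
        interior_mono ((hF i).closure_subset_iff.2 interior_subset)
      exact fun x hx y hy => hfree i x (h2 hx) y (h2 hy)) c
  have := h1 x hx
  omega

end Vale.Agent.P032.S5.H926
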