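import Vale.Agent.P032.S5.H926.MinD

/-!
# P032: from the frame to the plane

`exists_five_of` : the statement about points near which no four of the sets suffice, from the
exclusion of irredundant covers with at most four colours at every point.
`exists_pair_of` : the same with points near which no three of the sets suffice at distance one.
-/

open Set Filter Topology Metric

noncomputable section

namespace Vale.Agent.P032.S5.H926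

open Vale.Agent.P032.Six

variable {k : ℕ}

/-- a maximal open set without unit distance contains every point at distance `≠ 1` of its
closure -/
theorem mem_iff_of_maximal {V : Set ℂ}
    (hV : Maximal (fun W : Set ℂ => IsOpen W ∧ ∀ x ∈ W, ∀ y ∈ W, dist x y ≠ 1) V) (x : ℂ) :
    x ∈ V ↔ ∀ y ∈ closure V, dist x y ≠ 1 := by
  refine ⟨fun hx => free_closure hV.prop.1 hV.prop.2 x hx, fun hx => ?_⟩
  obtain ⟨r, hr, hball⟩ := free_union_ball hV.prop.2 hx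
  have h1 := hV.le_of_ge (y := V ∪ ball x r) ⟨hV.prop.1.union isOpen_ball, hball⟩ subset_union_left
  exact h1 (Or.inr (mem_ball_self hr))

theorem Mx_of_maximal {U : Fin k → Set ℂ}
    (hU : ∀ i, Maximal (fun W : Set ℂ => IsOpen W ∧ ∀ x ∈ W, ∀ y ∈ W, dist x y ≠ 1) (U i))
    (hd : Dense (⋃ i, U i)) : Mx U :=
  Mx.of_max (fun i => (hU i).prop.1) hd fun i x => mem_iff_of_maximal (hU i) x

/-- if near `z` the union of the `U i` is the union of the `U i`, `i ∈ s`, then `s` is locally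
sufficient at `z` -/
theorem suf_of_notMem {U : Fin k → Set ℂ} (hd : Dense (⋃ i, U i)) {s : Set (Fin k)} {z : ℂ}
    (hz : z ∉ closure ((⋃ j, U j) \ ⋃ i ∈ s, U i)) :
    ∀ᶠ w in 𝓝 z, ∃ i ∈ s, w ∈ U i ∨ (w ∈ XX U ∧ i ∈ Pal U w) := by
  classical
  filter_upwards [isClosed_closure.isOpen_compl.mem_nhds hz] with w hw
  have hN : ∀ v ∈ (closure ((⋃ j, U j) \ ⋃ i ∈ s, U i))ᶜ, v ∈ ⋃ j, U j → v ∈ ⋃ i ∈ s, U i := by
    intro v hv hvU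
    by_contra hcon
    exact hv (subset_closure ⟨hvU, hcon⟩)
  by_cases hX : w ∈ XX U
  · have h1 : w ∈ closure (⋃ i ∈ s, U i) := by
      rw [mem_closure_iff_nhds]
      intro t ht
      have h2 : t ∩ (closure ((⋃ j, U j) \ ⋃ i ∈ s, U i))ᶜ ∈ 𝓝 w :=
        inter_mem ht (isClosed_closure.isOpen_compl.mem_nhds hw)
      obtain ⟨v, hv, hvU⟩ := mem_closure_iff_nhds.1 (hd w) _ h2
      exact ⟨v, hv.1, hN v hv.2 hvU⟩
    rw [(Set.toFinite s).closure_biUnion] at h1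
    obtain ⟨i, hi, h2⟩ := mem_iUnion₂.1 h1
    exact ⟨i, hi, Or.inr ⟨hX, h2⟩⟩
  · have h1 : ∃ i, w ∈ U i := by simpa [XX] using hX
    obtain ⟨j, hj⟩ := h1
    obtain ⟨i, hi, h2⟩ := mem_iUnion₂.1 (hN w hw (mem_iUnion.2 ⟨j, hj⟩))
    exact ⟨i, hi, Or.inl h2⟩

/-- **The frame on a closed set.** -/
theorem exists_T_of {U : Fin 6 → Set ℂ}
    (hU : ∀ i, Maximal (fun W : Set ℂ => IsOpen W ∧ ∀ x ∈ W, ∀ y ∈ W, dist x y ≠ 1) (U i))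
    (hd : Dense (⋃ i, U i)) {D : Set ℂ} (hD : IsClosed D) {m : ℕ} (hm : 3 ≤ m)
    (h4 : ¬ ∃ z ∈ D, ∀ s : Set (Fin 6), s.ncard ≤ m → z ∈ closure ((⋃ j, U j) \ ⋃ i ∈ s, U i))
    (hp : ¬ ∃ z ∈ D, ∃ z' ∈ D, dist z z' = 1 ∧
      (∀ s : Set (Fin 6), s.ncard ≤ 3 → z ∈ closure ((⋃ j, U j) \ ⋃ i ∈ s, U i)) ∧
      ∀ s : Set (Fin 6), s.ncard ≤ 3 → z' ∈ closure ((⋃ j, U j) \ ⋃ i ∈ s, U i)) :
    ∃ T, Irr U T ∧
      (∀ z, 4 ≤ (T z).ncard → ∀ s, s ⊆ T z → s ≠ T z →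
        ¬ ∀ᶠ w in 𝓝 z, ∃ i ∈ s, w ∈ U i ∨ (w ∈ XX U ∧ i ∈ Pal U w)) ∧
      (∀ z ∈ D, (T z).ncard ≤ m) ∧
      ∀ z ∈ D, ∀ z' ∈ D, 4 ≤ (T z).ncard → 4 ≤ (T z').ncard → dist z z' ≠ 1 := by
  classical
  set X : Set ℂ := D ∩ ⋂ s : {s : Set (Fin 6) // s.ncard ≤ 3},
    closure ((⋃ j, U j) \ ⋃ i ∈ (s : Set (Fin 6)), U i) with hX
  have hXc : IsClosed X := hD.inter (isClosed_iInter fun s => isClosed_closure)
  have hXm : ∀ z, z ∈ X ↔ z ∈ D ∧ ∀ s : Set (Fin 6), s.ncard ≤ 3 →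
      z ∈ closure ((⋃ j, U j) \ ⋃ i ∈ s, U i) := by
    intro z
    simp [X]
  obtain ⟨V, hV, hXV, hVf⟩ := exists_open_free hXc (fun x hx y hy hxy => by
    rw [hXm] at hx hy
    exact hp ⟨x, hx.1, y, hy.1, hxy, hx.2, hy.2⟩)
  obtain ⟨T, hT, hmin, hle, h4V⟩ := exists_frame (Mx_of_maximal hU hd)
    (fun i x hx => (mem_iff_of_maximal (hU i) x).2 hx) hD hm (fun z hz _ => by
      have h1 : ¬ ∀ s : Set (Fin 6), s.ncard ≤ m → z ∈ closure ((⋃ j, U j) \ ⋃ i ∈ s, U i) :=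
        fun h2 => h4 ⟨z, hz, h2⟩
      push Not at h1
      obtain ⟨s, hs, hsz⟩ := h1
      exact ⟨s, hs, suf_of_notMem hd hsz⟩) (V := V ∪ Dᶜ) (hV.union hD.isOpen_compl)
    (fun z hz _ => by
      have hzD : z ∈ D := by
        by_contra hcon
        exact hz (Or.inr hcon)
      have h1 : ¬ ∀ s : Set (Fin 6), s.ncard ≤ 3 → z ∈ closure ((⋃ j, U j) \ ⋃ i ∈ s, U i) :=
        fun h2 => hz (Or.inl (hXV ((hXm z).2 ⟨hzD, h2⟩)))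
      push Not at h1
      obtain ⟨s, hs, hsz⟩ := h1
      exact ⟨s, hs, suf_of_notMem hd hsz⟩)
  refine ⟨T, hT, hmin, hle, fun z hz z' hz' h5 h6 => ?_⟩
  have h7 : ∀ z ∈ D, 4 ≤ (T z).ncard → z ∈ V := by
    intro z hz h8
    rcases h4V z h8 with h9 | h9
    · exact h9
    · exact absurd hz h9
  exact hVf z (h7 z hz h5) z' (h7 z' hz' h6)

/-- transport of maximality -/
theorem maximal_preimage {U : Set (EuclideanSpace ℝ (Fin 2))}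
    (hU : Maximal (fun W : Set (EuclideanSpace ℝ (Fin 2)) =>
      IsOpen W ∧ ∀ x ∈ W, ∀ y ∈ W, dist x y ≠ 1) U)
    (φ : ℂ ≃ₗᵢ[ℝ] EuclideanSpace ℝ (Fin 2)) :
    Maximal (fun W : Set ℂ => IsOpen W ∧ ∀ x ∈ W, ∀ y ∈ W, dist x y ≠ 1) (φ ⁻¹' U) := by
  refine ⟨⟨hU.prop.1.preimage φ.continuous, fun x hx y hy => ?_⟩, fun W hW hUW => ?_⟩
  · have := hU.prop.2 _ hx _ hy
    rwa [φ.dist_map] at this
  · have h1 : φ.symm ⁻¹' W ⊆ U := by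
      refine hU.le_of_ge (y := φ.symm ⁻¹' W) ⟨hW.1.preimage φ.symm.continuous, fun x hx y hy => ?_⟩
        (fun x hx => ?_)
      · have := hW.2 _ hx _ hy
        rwa [φ.symm.dist_map] at this
      · refine hUW ?_
        rw [mem_preimage, φ.apply_symm_apply]
        exact hx
    intro x hx
    refine h1 ?_
    rw [mem_preimage, φ.symm_apply_apply]
    exact hx

/-- open sets without unit distance lie in maximal ones -/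
theorem exists_maximal_ge {E : Type*} [PseudoMetricSpace E] {V : Set E} (hV : IsOpen V)
    (h : ∀ x ∈ V, ∀ y ∈ V, dist x y ≠ 1) :
    ∃ W, V ⊆ W ∧ Maximal (fun W : Set E => IsOpen W ∧ ∀ x ∈ W, ∀ y ∈ W, dist x y ≠ 1) W := by
  have hub : ∀ c ⊆ {W : Set E | IsOpen W ∧ ∀ x ∈ W, ∀ y ∈ W, dist x y ≠ 1}, IsChain (· ⊆ ·) c →
      c.Nonempty → ∃ ub ∈ {W : Set E | IsOpen W ∧ ∀ x ∈ W, ∀ y ∈ W, dist x y ≠ 1},
        ∀ s ∈ c, s ⊆ ub := by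
    intro c hc hchain _
    refine ⟨⋃₀ c, ⟨isOpen_sUnion fun s hs => (hc hs).1, ?_⟩, fun s hs => subset_sUnion_of_mem hs⟩
    rintro x ⟨s, hs, hxs⟩ y ⟨t, ht, hyt⟩
    rcases hchain.total hs ht with hst | hst
    · exact (hc ht).2 x (hst hxs) y hyt
    · exact (hc hs).2 x hxs y (hst hyt)
  obtain ⟨W, hVW, hW⟩ := zorn_subset_nonempty _ hub V ⟨hV, h⟩
  exact ⟨W, hVW, hW⟩

/-- **The same in the Euclidean plane.**  `D` is a closed set, `m = 6` means no order bound. -/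
theorem exists_pair_of {m : ℕ} (hm : 3 ≤ m) {U : Fin 6 → Set (EuclideanSpace ℝ (Fin 2))}
    (hU : ∀ i, Maximal (fun W : Set (EuclideanSpace ℝ (Fin 2)) =>
      IsOpen W ∧ ∀ x ∈ W, ∀ y ∈ W, dist x y ≠ 1) (U i))
    (hd : Dense (⋃ i, U i)) {D : Set (EuclideanSpace ℝ (Fin 2))} (hD : IsClosed D)
    (φ : ℂ ≃ₗᵢ[ℝ] EuclideanSpace ℝ (Fin 2))
    (top : ∀ (V : Fin 6 → Set ℂ) (T : ℂ → Set (Fin 6)), Irr V T →
      (∀ z, 4 ≤ (T z).ncard → ∀ s, s ⊆ T z → s ≠ T z →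
        ¬ ∀ᶠ w in 𝓝 z, ∃ i ∈ s, w ∈ V i ∨ (w ∈ XX V ∧ i ∈ Pal V w)) →
      (∀ z ∈ φ ⁻¹' D, (T z).ncard ≤ m) →
      (∀ z ∈ φ ⁻¹' D, ∀ z' ∈ φ ⁻¹' D, 4 ≤ (T z).ncard → 4 ≤ (T z').ncard → dist z z' ≠ 1) →
      False) :
    (∃ z ∈ D, ∀ s : Set (Fin 6), s.ncard ≤ m → z ∈ closure ((⋃ j, U j) \ ⋃ i ∈ s, U i)) ∨
    ∃ z ∈ D, ∃ z' ∈ D, dist z z' = 1 ∧
      (∀ s : Set (Fin 6), s.ncard ≤ 3 → z ∈ closure ((⋃ j, U j) \ ⋃ i ∈ s, U i)) ∧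
      ∀ s : Set (Fin 6), s.ncard ≤ 3 → z' ∈ closure ((⋃ j, U j) \ ⋃ i ∈ s, U i) := by
  by_contra hcon
  rw [not_or] at hcon
  have hcl : ∀ (z : ℂ) (s : Set (Fin 6)),
      z ∈ closure ((⋃ j, φ ⁻¹' U j) \ ⋃ i ∈ s, φ ⁻¹' U i) →
        φ z ∈ closure ((⋃ j, U j) \ ⋃ i ∈ s, U i) := by
    intro z s hz
    have h1 : (⋃ j, φ ⁻¹' U j) \ ⋃ i ∈ s, φ ⁻¹' U i = φ ⁻¹' ((⋃ j, U j) \ ⋃ i ∈ s, U i) := by
      rw [preimage_sdiff, preimage_iUnion, preimage_iUnion₂]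
    rw [h1] at hz
    exact φ.continuous.closure_preimage_subset _ hz
  obtain ⟨T, hT, hmin, hle, hu⟩ := exists_T_of (U := fun i => φ ⁻¹' U i)
    (fun i => maximal_preimage (hU i) φ) (by
      rw [← preimage_iUnion]
      exact hd.preimage φ.toHomeomorph.isOpenMap) (D := φ ⁻¹' D) (hD.preimage φ.continuous) hm
    (fun ⟨z, hz, h⟩ => hcon.1 ⟨φ z, hz, fun s hs => hcl z s (h s hs)⟩)
    (fun ⟨z, hz, z', hz', h1, h2, h3⟩ => hcon.2 ⟨φ z, hz, φ z', hz', by rw [φ.dist_map]; exact h1,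
      fun s hs => hcl z s (h2 s hs), fun s hs => hcl z' s (h3 s hs)⟩)
  exact top _ T hT hmin hle hu

/-- **Points near which no `m` of the sets suffice.** -/
theorem exists_five_of {m : ℕ} (hm : 3 ≤ m) {U : Fin 6 → Set (EuclideanSpace ℝ (Fin 2))}
    (hU : ∀ i, Maximal (fun W : Set (EuclideanSpace ℝ (Fin 2)) =>
      IsOpen W ∧ ∀ x ∈ W, ∀ y ∈ W, dist x y ≠ 1) (U i))
    (hd : Dense (⋃ i, U i)) {D : Set (EuclideanSpace ℝ (Fin 2))} (hD : IsClosed D)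
    (φ : ℂ ≃ₗᵢ[ℝ] EuclideanSpace ℝ (Fin 2))
    (top : ∀ (V : Fin 6 → Set ℂ) (T : ℂ → Set (Fin 6)), Irr V T →
      (∀ z, 4 ≤ (T z).ncard → ∀ s, s ⊆ T z → s ≠ T z →
        ¬ ∀ᶠ w in 𝓝 z, ∃ i ∈ s, w ∈ V i ∨ (w ∈ XX V ∧ i ∈ Pal V w)) →
      (∀ z ∈ φ ⁻¹' D, (T z).ncard ≤ m) → False) :
    ∃ z ∈ D, ∀ s : Set (Fin 6), s.ncard ≤ m → z ∈ closure ((⋃ j, U j) \ ⋃ i ∈ s, U i) := by
  by_contra hcon
  have hcl : ∀ (z : ℂ) (s : Set (Fin 6)),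
      z ∈ closure ((⋃ j, φ ⁻¹' U j) \ ⋃ i ∈ s, φ ⁻¹' U i) →
        φ z ∈ closure ((⋃ j, U j) \ ⋃ i ∈ s, U i) := by
    intro z s hz
    have h1 : (⋃ j, φ ⁻¹' U j) \ ⋃ i ∈ s, φ ⁻¹' U i = φ ⁻¹' ((⋃ j, U j) \ ⋃ i ∈ s, U i) := by
      rw [preimage_sdiff, preimage_iUnion, preimage_iUnion₂]
    rw [h1] at hz
    exact φ.continuous.closure_preimage_subset _ hz
  have hU' : ∀ i, Maximal (fun W : Set ℂ => IsOpen W ∧ ∀ x ∈ W, ∀ y ∈ W, dist x y ≠ 1)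
      (φ ⁻¹' U i) := fun i => maximal_preimage (hU i) φ
  have hd' : Dense (⋃ i, φ ⁻¹' U i) := by
    rw [← preimage_iUnion]
    exact hd.preimage φ.toHomeomorph.isOpenMap
  obtain ⟨T, hT, hmin, hle⟩ := exists_irr_min_le_of (Mx_of_maximal hU' hd')
    (fun i x hx => (mem_iff_of_maximal (hU' i) x).2 hx) (D := φ ⁻¹' D) (hD.preimage φ.continuous)
    hm fun z hz _ => by
      have h1 : ¬ ∀ s : Set (Fin 6), s.ncard ≤ m →
          z ∈ closure ((⋃ j, φ ⁻¹' U j) \ ⋃ i ∈ s, φ ⁻¹' U i) :=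
        fun h2 => hcon ⟨φ z, hz, fun s hs => hcl z s (h2 s hs)⟩
      push Not at h1
      obtain ⟨s, hs, hsz⟩ := h1
      exact ⟨s, hs, suf_of_notMem hd' hsz⟩
  exact top _ T hT hmin hle

end Vale.Agent.P032.S5.H926
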